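import Mathlib

/-!
# Separable quotients of spaces of bounded continuous functions

Let `Ω` be a normal Hausdorff space and `L ⊆ Ω` an infinite compact second-countable subset.
Restriction to `L` maps the Banach space of bounded continuous real functions on `Ω` onto that
of `L` (Tietze), which is separable and infinite-dimensional.  Hence the quotient by the
(closed) subspace of functions vanishing on `L` is separable and infinite-dimensional.
-/

namespace Vale.Agent.Lib.P129

open Set BoundedContinuousFunction TopologicalSpace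

variable {Ω : Type*} [TopologicalSpace Ω] [T2Space Ω] [NormalSpace Ω]

/-- Restriction of bounded continuous functions to a subset, as a continuous linear map. -/
noncomputable def restr (L : Set Ω) : (Ω →ᵇ ℝ) →L[ℝ] (L →ᵇ ℝ) :=
  compContinuousCLM ℝ ℝ (⟨Subtype.val, continuous_subtype_val⟩ : C(L, Ω))

@[simp] theorem restr_apply (L : Set Ω) (f : Ω →ᵇ ℝ) (x : L) : restr L f x = f x := rfl

/-- The closed subspace of functions vanishing on `L`. -/
noncomputable def vanishing (L : Set Ω) : Submodule ℝ (Ω →ᵇ ℝ) :=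
  LinearMap.ker (restr L : (Ω →ᵇ ℝ) →ₗ[ℝ] (L →ᵇ ℝ))

theorem mem_vanishing {L : Set Ω} {f : Ω →ᵇ ℝ} : f ∈ vanishing L ↔ ∀ x ∈ L, f x = 0 := by
  rw [vanishing, LinearMap.mem_ker]
  constructor
  · intro h x hx
    have := congrArg (fun g : L →ᵇ ℝ => g ⟨x, hx⟩) h
    simpa using this
  · intro h
    ext x
    exact h x x.2

theorem isClosed_vanishing (L : Set Ω) : IsClosed (vanishing L : Set (Ω →ᵇ ℝ)) :=
  (restr L).isClosed_ker

/-- Tietze: every bounded continuous function on a compact set extends with the same norm. -/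
theorem exists_extension {L : Set Ω} (hL : IsCompact L) (g : L →ᵇ ℝ) :
    ∃ f : Ω →ᵇ ℝ, ‖f‖ = ‖g‖ ∧ restr L f = g := by
  obtain ⟨f, hf, hfg⟩ :=
    exists_extension_norm_eq_of_isClosedEmbedding g hL.isClosed.isClosedEmbedding_subtypeVal
  refine ⟨f, hf, ?_⟩
  ext x
  exact congrFun hfg x

theorem restr_surjective {L : Set Ω} (hL : IsCompact L) :
    Function.Surjective (restr L : (Ω →ᵇ ℝ) →ₗ[ℝ] (L →ᵇ ℝ)) := fun g => by
  obtain ⟨f, _, hf⟩ := exists_extension hL g
  exact ⟨f, hf⟩

/-- A norm-preserving (not necessarily linear) extension map. -/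
noncomputable def ext {L : Set Ω} (hL : IsCompact L) (g : L →ᵇ ℝ) : Ω →ᵇ ℝ :=
  Classical.choose (exists_extension hL g)

theorem norm_ext {L : Set Ω} (hL : IsCompact L) (g : L →ᵇ ℝ) : ‖ext hL g‖ = ‖g‖ :=
  (Classical.choose_spec (exists_extension hL g)).1

theorem restr_ext {L : Set Ω} (hL : IsCompact L) (g : L →ᵇ ℝ) : restr L (ext hL g) = g :=
  (Classical.choose_spec (exists_extension hL g)).2

/-- The induced map from functions on `L` to the quotient. -/
noncomputable def toQuot {L : Set Ω} (hL : IsCompact L) (g : L →ᵇ ℝ) :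
    (Ω →ᵇ ℝ) ⧸ vanishing L :=
  Submodule.Quotient.mk (ext hL g)

theorem toQuot_surjective {L : Set Ω} (hL : IsCompact L) :
    Function.Surjective (toQuot hL) := by
  intro q
  obtain ⟨f, rfl⟩ := Submodule.Quotient.mk_surjective _ q
  refine ⟨restr L f, ?_⟩
  rw [toQuot, Submodule.Quotient.eq, vanishing, LinearMap.mem_ker]
  show restr L (ext hL (restr L f) - f) = 0
  rw [map_sub, restr_ext, sub_self]

theorem toQuot_lipschitz {L : Set Ω} (hL : IsCompact L) : LipschitzWith 1 (toQuot hL) := by
  apply LipschitzWith.of_dist_le_mul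
  intro g g'
  rw [NNReal.coe_one, one_mul, dist_eq_norm, dist_eq_norm]
  have h1 : toQuot hL g - toQuot hL g'
      = (Submodule.Quotient.mk (ext hL (g - g')) : (Ω →ᵇ ℝ) ⧸ vanishing L) := by
    rw [toQuot, toQuot, ← Submodule.Quotient.mk_sub, Submodule.Quotient.eq, vanishing,
      LinearMap.mem_ker]
    show restr L (ext hL g - ext hL g' - ext hL (g - g')) = 0
    rw [map_sub, map_sub, restr_ext, restr_ext, restr_ext, sub_self]
  rw [h1]
  calc ‖(Submodule.Quotient.mk (ext hL (g - g')) : (Ω →ᵇ ℝ) ⧸ vanishing L)‖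
      ≤ ‖ext hL (g - g')‖ := Submodule.Quotient.norm_mk_le _ _
    _ = ‖g - g'‖ := norm_ext hL _

theorem separableSpace_quotient {L : Set Ω} (hL : IsCompact L) [SecondCountableTopology L] :
    SeparableSpace ((Ω →ᵇ ℝ) ⧸ vanishing L) := by
  haveI : CompactSpace L := isCompact_iff_compactSpace.mp hL
  haveI : SeparableSpace (L →ᵇ ℝ) :=
    (ContinuousMap.equivBoundedOfCompact L ℝ).surjective.denseRange.separableSpace
      (ContinuousMap.isUniformEmbedding_equivBoundedOfCompact L ℝ).uniformContinuous.continuous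
  exact (toQuot_surjective hL).denseRange.separableSpace (toQuot_lipschitz hL).continuous

/-- On an infinite compact Hausdorff space the bounded continuous functions form an
infinite-dimensional space. -/
theorem not_finiteDimensional_of_infinite {L : Set Ω} (hL : IsCompact L) (hinf : L.Infinite) :
    ¬ FiniteDimensional ℝ (L →ᵇ ℝ) := by
  intro hfin
  haveI : CompactSpace L := isCompact_iff_compactSpace.mp hL
  haveI : Infinite L := hinf.to_subtype
  set d := Module.finrank ℝ (L →ᵇ ℝ) with hd
  let p : ℕ ↪ L := Infinite.natEmbedding L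
  -- for each `i ≤ d` a function equal to `1` at `p i` and `0` at the other `p j`, `j ≤ d`
  have hex : ∀ i : Fin (d + 1), ∃ f : C(L, ℝ), f (p i) = 1 ∧
      ∀ j : Fin (d + 1), j ≠ i → f (p j) = 0 := by
    intro i
    have hs : IsClosed (Set.range (fun j : {j : Fin (d + 1) // j ≠ i} => p j)) :=
      (Set.finite_range _).isClosed
    have ht : IsClosed ({p i} : Set L) := isClosed_singleton
    have hdisj : Disjoint (Set.range (fun j : {j : Fin (d + 1) // j ≠ i} => p j))
        ({p i} : Set L) := by
      rw [Set.disjoint_singleton_right]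
      rintro ⟨⟨j, hj⟩, hji⟩
      have h1 : (j : ℕ) = (i : ℕ) := p.injective hji
      exact hj (Fin.ext h1)
    obtain ⟨f, hf0, hf1, _⟩ := exists_continuous_zero_one_of_isClosed hs ht hdisj
    refine ⟨f, hf1 (Set.mem_singleton _), fun j hj => ?_⟩
    exact hf0 ⟨⟨j, hj⟩, rfl⟩
  choose f hf1 hf0 using hex
  let F : Fin (d + 1) → (L →ᵇ ℝ) := fun i => mkOfCompact (f i)
  have hli : LinearIndependent ℝ F := by
    rw [Fintype.linearIndependent_iff]
    intro c hc k
    have h1 := congrArg (fun g : L →ᵇ ℝ => g (p k)) hc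
    simp only [coe_sum, coe_smul, Finset.sum_apply, smul_eq_mul, coe_zero, Pi.zero_apply,
      F, mkOfCompact_apply] at h1
    rw [Finset.sum_eq_single k] at h1
    · rw [hf1 k, mul_one] at h1
      exact h1
    · intro i _ hik
      rw [hf0 i k (Ne.symm hik), mul_zero]
    · intro hk
      exact absurd (Finset.mem_univ k) hk
  have := hli.fintype_card_le_finrank
  rw [Fintype.card_fin] at this
  omega

theorem not_finiteDimensional_quotient {L : Set Ω} (hL : IsCompact L) (hinf : L.Infinite) :
    ¬ FiniteDimensional ℝ ((Ω →ᵇ ℝ) ⧸ vanishing L) := by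
  intro hfin
  apply not_finiteDimensional_of_infinite hL hinf
  let e : ((Ω →ᵇ ℝ) ⧸ vanishing L) ≃ₗ[ℝ] (L →ᵇ ℝ) :=
    LinearMap.quotKerEquivOfSurjective _ (restr_surjective hL)
  exact LinearEquiv.finiteDimensional e

/-- The main statement for a subset `L`. -/
theorem exists_separable_quotient (Ω : Type*) [TopologicalSpace Ω] [T2Space Ω] [NormalSpace Ω]
    (L : Set Ω) (hL : IsCompact L) (hinf : L.Infinite) [SecondCountableTopology L] :
    ∃ M : Submodule ℝ (Ω →ᵇ ℝ), IsClosed (M : Set (Ω →ᵇ ℝ)) ∧
      SeparableSpace ((Ω →ᵇ ℝ) ⧸ M) ∧ ¬ FiniteDimensional ℝ ((Ω →ᵇ ℝ) ⧸ M) :=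
  ⟨vanishing L, isClosed_vanishing L, separableSpace_quotient hL,
    not_finiteDimensional_quotient hL hinf⟩

open Filter Topology in
/-- The case of a nontrivial convergent sequence. -/
theorem exists_separable_quotient_of_sequence (Ω : Type*) [TopologicalSpace Ω] [T2Space Ω]
    [NormalSpace Ω] (x : ℕ → Ω) (a : Ω) (hx : Function.Injective x) (hxa : ∀ n, x n ≠ a)
    (hlim : Tendsto x atTop (𝓝 a)) :
    ∃ M : Submodule ℝ (Ω →ᵇ ℝ), IsClosed (M : Set (Ω →ᵇ ℝ)) ∧
      SeparableSpace ((Ω →ᵇ ℝ) ⧸ M) ∧ ¬ FiniteDimensional ℝ ((Ω →ᵇ ℝ) ⧸ M) := by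
  let φ : C(OnePoint ℕ, Ω) := OnePoint.continuousMapMkNat x a hlim
  have hφinf : φ OnePoint.infty = a := rfl
  have hφn : ∀ n : ℕ, φ (n : OnePoint ℕ) = x n := fun _ => rfl
  have hinj : Function.Injective φ := by
    intro z w hzw
    induction z using OnePoint.rec with
    | infty =>
      induction w using OnePoint.rec with
      | infty => rfl
      | coe n => rw [hφinf, hφn] at hzw; exact absurd hzw.symm (hxa n)
    | coe m =>
      induction w using OnePoint.rec with
      | infty => rw [hφinf, hφn] at hzw; exact absurd hzw (hxa m)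
      | coe n => rw [hφn, hφn] at hzw; rw [hx hzw]
  have hemb : IsClosedEmbedding φ := φ.continuous.isClosedEmbedding hinj
  have hcomp : IsCompact (Set.range φ) := isCompact_range φ.continuous
  have hinf : (Set.range φ).Infinite := by
    apply (Set.infinite_range_of_injective hx).mono
    rintro _ ⟨n, rfl⟩
    exact ⟨(n : OnePoint ℕ), hφn n⟩
  haveI : SecondCountableTopology (Set.range φ) :=
    hemb.isEmbedding.toHomeomorph.symm.secondCountableTopology
  exact exists_separable_quotient Ω (Set.range φ) hcomp hinf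

end Vale.Agent.Lib.P129
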